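import Mathlib.Algebra.BigOperators.Ring.Finset
import Mathlib.Algebra.Order.BigOperators.Ring.Finset
import Mathlib.Data.Fintype.Card
import Mathlib.Data.Fintype.BigOperators
import Mathlib.Tactic.Linarith
import Mathlib.Tactic.Ring
import Mathlib.Tactic.IntervalCases

set_option linter.unusedSectionVars false

namespace Vale.Agent.P045

open Finset

/-- A self-dual model of the projective plane of order 16 with a Baer subplane `B`. -/
structure Geo (P : Type) [Fintype P] [DecidableEq P] (inc : P → P → Prop) [DecidableRel inc]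
    (B : Finset P) : Prop where
  cardP : Fintype.card P = 273
  cardB : B.card = 21
  symm : ∀ x a, inc x a → inc a x
  deg : ∀ x, (univ.filter (inc x)).card = 17
  two : ∀ x y, x ≠ y → (univ.filter (fun a => inc x a ∧ inc y a)).card = 1
  B5 : ∀ x ∈ B, (B.filter (inc x)).card = 5
  B1 : ∀ x, x ∉ B → (B.filter (inc x)).card = 1

variable {P : Type} [Fintype P] [DecidableEq P] {inc : P → P → Prop} [DecidableRel inc]
  {B : Finset P}

/-- number of points of `C` on the line `a` -/
def jj (inc : P → P → Prop) [DecidableRel inc] (C : Finset P) (a : P) : ℤ :=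
  ∑ x ∈ C, if inc x a then 1 else 0

theorem jj_nonneg (C : Finset P) (a : P) : 0 ≤ jj inc C a :=
  sum_nonneg fun _ _ => by split_ifs <;> simp

theorem jj_eq_card (C : Finset P) (a : P) : jj inc C a = (C.filter (fun x => inc x a)).card := by
  simp [jj]

theorem sum_jj (C A : Finset P) : ∑ a ∈ A, jj inc C a = ∑ x ∈ C, ((A.filter (inc x)).card : ℤ) := by
  unfold jj
  rw [sum_comm]
  simp

namespace Geo

variable (G : Geo P inc B)
include G

theorem unique {x y a b : P} (hxy : x ≠ y) (h1 : inc x a) (h2 : inc y a) (h3 : inc x b)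
    (h4 : inc y b) : a = b := by
  have := card_le_one.1 (G.two x y hxy).le a (by simp [h1, h2]) b (by simp [h3, h4])
  exact this

theorem exists_common {x y : P} (hxy : x ≠ y) : ∃ a, inc x a ∧ inc y a := by
  obtain ⟨a, ha⟩ := card_pos.1 (by rw [G.two x y hxy]; exact one_pos)
  exact ⟨a, (mem_filter.1 ha).2⟩

theorem exists_meet {a b : P} (hab : a ≠ b) : ∃ x, inc x a ∧ inc x b := by
  obtain ⟨x, h1, h2⟩ := G.exists_common hab
  exact ⟨x, G.symm _ _ h1, G.symm _ _ h2⟩

theorem meet_unique {x y a b : P} (hab : a ≠ b) (h1 : inc x a) (h2 : inc x b) (h3 : inc y a)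
    (h4 : inc y b) : x = y := by
  by_contra h
  exact hab (G.unique h h1 h3 h2 h4)

theorem B_unique {x a b : P} (hx : x ∉ B) (ha : a ∈ B) (hb : b ∈ B) (h1 : inc x a)
    (h2 : inc x b) : a = b :=
  card_le_one.1 (G.B1 x hx).le a (by simp [ha, h1]) b (by simp [hb, h2])

theorem Bl_eq {x a : P} (hx : x ∉ B) (ha : a ∈ B) (h1 : inc x a) : B.filter (inc x) = {a} := by
  ext b
  simp only [mem_filter, mem_singleton]
  exact ⟨fun h => G.B_unique hx h.1 ha h.2 h1, fun h => h ▸ ⟨ha, h1⟩⟩

theorem pencil (C : Finset P) (x : P) :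
    ∑ a ∈ univ.filter (inc x), jj inc C a = C.card + if x ∈ C then 16 else 0 := by
  rw [sum_jj]
  have : ∀ y ∈ C, (((univ.filter (inc x)).filter (inc y)).card : ℤ) =
      1 + if x = y then 16 else 0 := by
    intro y _
    rw [filter_filter]
    by_cases h : x = y
    · subst h
      simp [G.deg]
    · simp [G.two x y h, h]
  rw [sum_congr rfl this, sum_add_distrib]
  simp

theorem sum_all (C : Finset P) : ∑ a, jj inc C a = 17 * C.card := by
  rw [sum_jj]
  simp [G.deg, mul_comm]

theorem sum_sq (C : Finset P) : ∑ a, jj inc C a * jj inc C a = C.card * (C.card + 16) := by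
  have : ∑ a, jj inc C a * jj inc C a = ∑ x ∈ C, ∑ a ∈ univ.filter (inc x), jj inc C a := by
    simp only [sum_filter]
    rw [sum_comm]
    refine sum_congr rfl fun a _ => ?_
    conv_lhs => rw [jj]
    rw [sum_mul]
    refine sum_congr rfl fun x _ => ?_
    split_ifs <;> simp [jj]
  rw [this, sum_congr rfl fun x hx => G.pencil C x]
  rw [sum_congr rfl (g := fun _ => (C.card : ℤ) + 16) fun x hx => by simp [hx]]
  simp

/-- every line other than `S` meets `S` in exactly one point -/
theorem along (S : P) (A : Finset P) (hS : S ∉ A) (f : P → ℤ) :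
    ∑ a ∈ A, f a = ∑ x ∈ univ.filter (fun x => inc x S), ∑ a ∈ A.filter (inc x), f a := by
  simp only [sum_filter (s := A)]
  rw [sum_comm]
  refine sum_congr rfl fun a ha => ?_
  have hne : S ≠ a := fun h => hS (h ▸ ha)
  obtain ⟨x, h1, h2⟩ := G.exists_meet hne
  rw [sum_eq_single x]
  · simp [h2]
  · intro y hy hyx
    rw [if_neg]
    intro h
    exact hyx (G.meet_unique hne (mem_filter.1 hy).2 h h1 h2)
  · intro h
    exact absurd (by simp [h1]) h

theorem pts_card (a : P) : (univ.filter (fun x => inc x a)).card = 17 := by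
  rw [← G.deg a]
  congr 1
  ext x
  simp only [mem_filter, mem_univ, true_and]
  exact ⟨G.symm _ _, G.symm _ _⟩

theorem ptsB_eq (a : P) : B.filter (fun x => inc x a) = B.filter (inc a) := by
  ext x
  simp only [mem_filter]
  exact ⟨fun h => ⟨h.1, G.symm _ _ h.2⟩, fun h => ⟨h.1, G.symm _ _ h.2⟩⟩

theorem split_card (x : P) :
    (Bᶜ.filter (inc x)).card + (B.filter (inc x)).card = 17 := by
  rw [← G.deg x, ← card_union_of_disjoint]
  · congr 1
    ext a
    by_cases h : a ∈ B <;> simp [h]
  · exact disjoint_filter_filter disjoint_compl_left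

theorem split_sum (x : P) (f : P → ℤ) :
    ∑ a ∈ Bᶜ.filter (inc x), f a + ∑ a ∈ B.filter (inc x), f a = ∑ a ∈ univ.filter (inc x), f a := by
  rw [← sum_union (disjoint_filter_filter disjoint_compl_left)]
  congr 1
  ext a
  by_cases h : a ∈ B <;> simp [h]

end Geo

/-- excess of `C` on the tangent lines through `x` -/
def ex (inc : P → P → Prop) [DecidableRel inc] (B C : Finset P) (x : P) : ℤ :=
  ∑ a ∈ Bᶜ.filter (inc x), (jj inc C a - 1)

namespace Geo

variable (G : Geo P inc B)
include G

theorem ex_B (C : Finset P) {x : P} (hx : x ∈ B) (hC : x ∉ C) :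
    ex inc B C x = C.card - ∑ a ∈ B.filter (inc x), jj inc C a - 12 := by
  have h1 := G.split_card x
  have h2 := G.split_sum x (jj inc C)
  rw [G.B5 x hx] at h1
  rw [G.pencil, if_neg hC] at h2
  have h3 : (Bᶜ.filter (inc x)).card = 12 := by omega
  rw [ex, sum_sub_distrib]
  simp only [sum_const, h3]
  simp only [nsmul_eq_mul, Nat.cast_ofNat, mul_one]
  linarith

theorem ex_notB (C : Finset P) {x S : P} (hx : x ∉ B) (hS : S ∈ B) (hxS : inc x S) :
    ex inc B C x = C.card - jj inc C S - 16 + if x ∈ C then 16 else 0 := by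
  have h1 := G.split_card x
  have h2 := G.split_sum x (jj inc C)
  rw [G.B1 x hx] at h1
  rw [G.pencil, G.Bl_eq hx hS hxS, sum_singleton] at h2
  have h3 : (Bᶜ.filter (inc x)).card = 16 := by omega
  rw [ex, sum_sub_distrib]
  simp only [sum_const, h3]
  simp only [nsmul_eq_mul, Nat.cast_ofNat, mul_one]
  linarith

theorem exists_B {x : P} (hx : x ∉ B) : ∃ S ∈ B, inc x S := by
  obtain ⟨a, ha⟩ := card_pos.1 (by rw [G.B1 x hx]; exact one_pos)
  exact ⟨a, (mem_filter.1 ha).1, (mem_filter.1 ha).2⟩

theorem sum_B (C : Finset P) :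
    ∑ a ∈ B, jj inc C a = C.card + 4 * ((C ∩ B).card : ℤ) := by
  rw [sum_jj]
  have : ∀ x ∈ C, ((B.filter (inc x)).card : ℤ) = 1 + 4 * if x ∈ B then 1 else 0 := by
    intro x _
    by_cases h : x ∈ B
    · simp [G.B5 x h, h]
    · simp [G.B1 x h, h]
  rw [sum_congr rfl this, sum_add_distrib, ← mul_sum]
  simp

/-- Baer points of a Baer line `S`: the sum over them of the Baer pencils -/
theorem sum_Bpencils (C : Finset P) {S : P} (hS : S ∈ B) :
    ∑ p ∈ B.filter (fun p => inc p S), ∑ a ∈ B.filter (inc p), jj inc C a =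
      ∑ a ∈ B, jj inc C a + 4 * jj inc C S := by
  simp only [sum_filter (s := B) (p := inc _)]
  rw [sum_comm]
  have : ∀ a ∈ B, ∑ p ∈ B.filter (fun p => inc p S), (if inc p a then jj inc C a else 0) =
      jj inc C a + if a = S then 4 * jj inc C S else 0 := by
    intro a ha
    by_cases h : a = S
    · subst h
      rw [sum_congr rfl (g := fun _ => jj inc C a) fun p hp => by simp [(mem_filter.1 hp).2]]
      rw [sum_const, G.ptsB_eq, G.B5 a ha]
      simp
      ring
    · obtain ⟨x, h1, h2⟩ := G.exists_meet h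
      have hx : x ∈ B := by
        by_contra hx
        exact h (G.B_unique hx ha hS h1 h2)
      rw [sum_eq_single x]
      · simp [h1, h]
      · intro y hy hyx
        rw [if_neg]
        intro h'
        exact hyx (G.meet_unique h h' (mem_filter.1 hy).2 h1 h2)
      · intro h'
        exact absurd (by simp [hx, h2]) h'
  rw [sum_congr rfl this, sum_add_distrib]
  simp [hS]

end Geo

end Vale.Agent.P045
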