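import Vale.Agent.P045.Model
import Mathlib.FieldTheory.Finite.GaloisField

set_option linter.unusedSectionVars false

namespace Vale.Agent.P045

open Finset

variable {P : Type} [Fintype P] [DecidableEq P] {inc : P → P → Prop} [DecidableRel inc]
  {B : Finset P}

theorem exists_surj {α β : Type} [Fintype α] [Fintype β] [Nonempty β]
    (h : Fintype.card β ≤ Fintype.card α) : ∃ f : α → β, Function.Surjective f := by
  obtain ⟨e⟩ := Function.Embedding.nonempty_of_card_le h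
  exact ⟨Function.invFun e, Function.invFun_surjective e.injective⟩

theorem Geo.blowup (G : Geo P inc B) (K : P → Type) [∀ x, Field (K x)] [∀ x, Fintype (K x)]
    (t γ : ℕ) (hγ : 0 < γ) (hK : ∀ x, Fintype.card (K x) = (B.filter (inc x)).card * t)
    (hγ1 : ∀ x, 273 * γ ≤ Fintype.card (K x)) (hγ2 : ∀ x, Fintype.card (K x) ≤ γ * γ) :
    ∃ (V : Type) (_ : Finite V) (part : V → Fin (21 * t)) (H : Finset (Finset V)),
      H.Nonempty ∧ (∀ e ∈ H, ∀ i, ∃! v, v ∈ e ∧ part v = i) ∧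
      (∀ e ∈ H, ∀ f ∈ H, ∃ v, v ∈ e ∧ v ∈ f) ∧
      ∀ C : Finset V, (∀ e ∈ H, ∃ v ∈ e, v ∈ C) → 21 * t ≤ C.card := by
  classical
  let Tm := B × Fin t
  have hTm : Fintype.card Tm = 21 * t := by simp [Tm, G.cardB]
  let eT : Tm ≃ Fin (21 * t) := Fintype.equivFinOfCardEq hTm
  have hal : ∀ x, ∃ al : Tm → K x, ∀ k, ∃ τ : Tm, inc x τ.1.1 ∧ al τ = k := by
    intro x
    have hc : Fintype.card (K x) ≤ Fintype.card {τ : Tm // inc x τ.1.1} := by
      rw [hK]
      have e : {τ : Tm // inc x τ.1.1} ≃ (B.filter (inc x)) × Fin t :=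
        { toFun := fun τ => (⟨τ.1.1.1, mem_filter.2 ⟨τ.1.1.2, τ.2⟩⟩, τ.1.2)
          invFun := fun p => ⟨(⟨p.1.1, (mem_filter.1 p.1.2).1⟩, p.2), (mem_filter.1 p.1.2).2⟩
          left_inv := fun _ => rfl
          right_inv := fun _ => rfl }
      rw [Fintype.card_congr e, Fintype.card_prod, Fintype.card_coe, Fintype.card_fin]
    obtain ⟨f, hf⟩ := exists_surj hc
    refine ⟨fun τ => if h : inc x τ.1.1 then f ⟨τ, h⟩ else 0, fun k => ?_⟩
    obtain ⟨τ, hτ⟩ := hf k
    exact ⟨τ.1, τ.2, by simp [τ.2, hτ]⟩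
  choose al hal using hal
  have hgam : ∀ x, Nonempty (P × Fin γ ↪ K x) := fun x =>
    Function.Embedding.nonempty_of_card_le (by simpa [G.cardP] using hγ1 x)
  let gam : ∀ x, P × Fin γ ↪ K x := fun x => (hgam x).some
  have hpsi : ∀ x, ∃ f : Fin γ × Fin γ → K x, Function.Surjective f := fun x =>
    exists_surj (by simpa using hγ2 x)
  choose psi hpsi using hpsi
  have hu : ∀ L, ∃ u v, L ∉ B → inc u L ∧ inc v L ∧ u ∉ B ∧ v ∉ B ∧ u ≠ v := by
    intro L
    by_cases hL : L ∈ B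
    · exact ⟨L, L, fun h => absurd hL h⟩
    · have := G.offB_card L
      rw [G.B1 L hL] at this
      obtain ⟨u, hu, v, hv, huv⟩ := one_lt_card.1
        (show 1 < ((univ.filter (fun x => inc x L)).filter (· ∉ B)).card by omega)
      simp only [mem_filter, mem_univ, true_and] at hu hv
      exact ⟨u, v, fun _ => ⟨hu.1, hv.1, hu.2, hv.2, huv⟩⟩
  choose u1 u2 hu using hu
  have hmeet : ∀ L S : P, ∃ x, L ≠ S → inc x L ∧ inc x S := by
    intro L S
    by_cases h : L = S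
    · exact ⟨L, fun h' => absurd h h'⟩
    · obtain ⟨x, hx⟩ := G.exists_meet h
      exact ⟨x, fun _ => hx⟩
  choose meet hmeet using hmeet
  have meet_eq : ∀ L, L ∉ B → ∀ τ : Tm, ∀ x, inc x L → inc x τ.1.1 → meet L τ.1.1 = x := by
    intro L hL τ x h1 h2
    have hne : L ≠ τ.1.1 := fun h => hL (h ▸ τ.1.2)
    exact G.meet_unique hne (hmeet _ _ hne).1 (hmeet _ _ hne).2 h1 h2
  have meet_inc : ∀ L, L ∉ B → ∀ τ : Tm, inc (meet L τ.1.1) L := fun L hL τ =>
    (hmeet _ _ (fun h : L = τ.1.1 => hL (h ▸ τ.1.2))).1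
  let V := Tm × Σ x, K x
  let vx : ∀ x, K x → K x → Tm → V := fun x g y τ => (τ, ⟨x, y - al x τ * g⟩)
  let vt : P → (P → Fin γ) → (∀ x, K x) → Tm → V := fun L g y τ =>
    vx (meet L τ.1.1) (gam _ (L, g (meet L τ.1.1))) (y _) τ
  let E : P → (P → Fin γ) → (∀ x, K x) → Finset V := fun L g y => univ.image (vt L g y)
  let ok : P → (P → Fin γ) → (∀ x, K x) → Prop := fun L g y =>
    L ∉ B ∧ ∀ x ∈ B, inc x L → y x = psi x (g (u1 L), g (u2 L))
  let H : Finset (Finset V) := univ.filter (fun e => ∃ L g y, ok L g y ∧ e = E L g y)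
  have memH : ∀ e, e ∈ H ↔ ∃ L g y, ok L g y ∧ e = E L g y := fun e => by simp [H]
  have memE : ∀ L, L ∉ B → ∀ g y x τ, inc x L → inc x τ.1.1 →
      vx x (gam x (L, g x)) (y x) τ ∈ E L g y := by
    intro L hL g y x τ h1 h2
    refine mem_image.2 ⟨τ, mem_univ _, ?_⟩
    have := meet_eq L hL τ x h1 h2
    subst this
    rfl
  have hL0 : ∃ L, L ∉ B := by
    by_contra h
    push Not at h
    have : B = univ := eq_univ_iff_forall.2 h
    have h2 := G.cardB
    rw [this, card_univ, G.cardP] at h2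
    norm_num at h2
  have share : ∀ x (g g' y y' : K x), g ≠ g' → ∃ τ : Tm, inc x τ.1.1 ∧ vx x g y τ = vx x g' y' τ := by
    intro x g g' y y' hg
    obtain ⟨τ, h1, h2⟩ := hal x ((y - y') / (g - g'))
    refine ⟨τ, h1, ?_⟩
    have : y - al x τ * g = y' - al x τ * g' := by
      rw [h2]
      have := sub_ne_zero.2 hg
      field_simp
      ring
    simp only [vx, this]
  refine ⟨V, inferInstance, fun v => eT v.1, H, ?_, ?_, ?_, ?_⟩
  · obtain ⟨L, hL⟩ := hL0
    exact ⟨_, (memH _).2 ⟨L, fun _ => ⟨0, hγ⟩, fun x => psi x (⟨0, hγ⟩, ⟨0, hγ⟩),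
      ⟨hL, fun _ _ _ => rfl⟩, rfl⟩⟩
  · intro e he i
    obtain ⟨L, g, y, -, rfl⟩ := (memH e).1 he
    refine ⟨vt L g y (eT.symm i), ⟨mem_image.2 ⟨_, mem_univ _, rfl⟩, by simp [vt, vx]⟩, ?_⟩
    rintro v ⟨hv, hi⟩
    obtain ⟨τ, -, rfl⟩ := mem_image.1 hv
    have : τ = eT.symm i := by
      rw [← hi]; simp [vt, vx]
    rw [this]
  · intro e he f hf
    obtain ⟨L, g, y, ⟨hL, hy⟩, rfl⟩ := (memH e).1 he
    obtain ⟨L', g', y', ⟨hL', hy'⟩, rfl⟩ := (memH f).1 hf
    by_cases hd : ∃ x, inc x L ∧ inc x L' ∧ (L, g x) ≠ (L', g' x)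
    · obtain ⟨x, h1, h2, h3⟩ := hd
      obtain ⟨τ, h4, h5⟩ := share x (gam x (L, g x)) (gam x (L', g' x)) (y x) (y' x)
        (fun h => h3 ((gam x).injective h))
      exact ⟨_, memE L hL g y x τ h1 h4, h5 ▸ memE L' hL' g' y' x τ h2 h4⟩
    · push Not at hd
      have hLL : L = L' := by
        by_contra h
        obtain ⟨x, h1, h2⟩ := G.exists_meet h
        exact h (congrArg Prod.fst (hd x h1 h2))
      subst hLL
      have hg : ∀ x, inc x L → g x = g' x := fun x h => congrArg Prod.snd (hd x h h)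
      obtain ⟨x, hxB, hx⟩ := G.exists_B hL
      have hx' := G.symm _ _ hx
      obtain ⟨τ, h1, -⟩ := hal x 0
      have e1 : y x = y' x := by
        rw [hy x hxB hx', hy' x hxB hx', hg _ (hu L hL).1, hg _ (hu L hL).2.1]
      refine ⟨_, memE L hL g y x τ hx' h1, ?_⟩
      rw [e1, hg x hx']
      exact memE L hL g' y' x τ hx' h1
  · intro C hC
    let cnt : P → ℕ := fun x => (C.filter (fun v => v.2.1 = x)).card
    let D : Finset P := univ.filter (fun x => Fintype.card (K x) ≤ cnt x)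
    have free : ∀ x, ∀ g0 : K x, ∃ y0 : K x, x ∉ D → ∀ τ, vx x g0 y0 τ ∉ C := by
      intro x g0
      by_contra h
      push Not at h
      have hx := (h 0).1
      choose τ hτ using fun y0 => (h y0).2
      apply hx
      refine mem_filter.2 ⟨mem_univ _, ?_⟩
      rw [← card_univ]
      refine card_le_card_of_injOn (fun y0 => vx x g0 y0 (τ y0)) ?_ ?_
      · intro y0 _
        exact mem_coe.2 (mem_filter.2 ⟨hτ y0, rfl⟩)
      · intro y0 _ y1 _ h01
        have h1 : τ y0 = τ y1 := congrArg Prod.fst h01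
        have h2 : (⟨x, y0 - al x (τ y0) * g0⟩ : Σ x, K x) = ⟨x, y1 - al x (τ y1) * g0⟩ :=
          congrArg Prod.snd h01
        have h3 := eq_of_heq (Sigma.mk.inj h2).2
        rw [h1] at h3
        exact sub_left_injective h3
    choose fr hfr using free
    have hD : ∀ L, L ∉ B → 1 ≤ jj inc D L := by
      intro L hL
      by_contra hlt
      have h0 : ∀ x, inc x L → x ∉ D := by
        intro x hx hxD
        apply hlt
        rw [jj_eq_card]
        exact_mod_cast card_pos.2 ⟨x, mem_filter.2 ⟨hxD, hx⟩⟩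
      obtain ⟨b, hbB, hb⟩ := G.exists_B hL
      obtain ⟨⟨p1, p2⟩, hp⟩ := hpsi b (fr b (gam b (L, ⟨0, hγ⟩)))
      obtain ⟨k1, k2, k3, k4, k5⟩ := hu L hL
      let g : P → Fin γ := fun x => if x = u1 L then p1 else if x = u2 L then p2 else ⟨0, hγ⟩
      let y : ∀ x, K x := fun x => fr x (gam x (L, g x))
      have hok : ok L g y := by
        refine ⟨hL, fun x hxB hx => ?_⟩
        have : x = b := G.B_unique hL hxB hbB (G.symm _ _ hx) hb
        subst this
        have n1 : x ≠ u1 L := fun h => k3 (h ▸ hxB)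
        have n2 : x ≠ u2 L := fun h => k4 (h ▸ hxB)
        simp only [y, g, n1, n2, if_false, if_true, k5.symm, hp]
      obtain ⟨v, hv, hvC⟩ := hC _ ((memH _).2 ⟨L, g, y, hok, rfl⟩)
      obtain ⟨τ, -, rfl⟩ := mem_image.1 hv
      exact hfr _ _ (h0 _ (meet_inc L hL τ)) τ hvC
    have h21 := G.weighted_cover hD
    rw [sum_jj] at h21
    have h21' : 21 ≤ ∑ x ∈ D, (B.filter (inc x)).card := by exact_mod_cast h21
    calc 21 * t ≤ (∑ x ∈ D, (B.filter (inc x)).card) * t := Nat.mul_le_mul_right _ h21'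
      _ = ∑ x ∈ D, Fintype.card (K x) := by rw [sum_mul]; exact sum_congr rfl fun x _ => (hK x).symm
      _ ≤ ∑ x ∈ D, cnt x := sum_le_sum fun x hx => (mem_filter.1 hx).2
      _ ≤ ∑ x, cnt x := sum_le_sum_of_subset (subset_univ _)
      _ = C.card := (card_eq_sum_card_fiberwise (fun v _ => mem_coe.2 (mem_univ v.2.1))).symm

theorem exists_counterexample (c : ℕ) :
    ∃ (V : Type) (_ : Finite V) (part : V → Fin (21 * 5 ^ (c + 9))) (H : Finset (Finset V)),
      H.Nonempty ∧ (∀ e ∈ H, ∀ i, ∃! v, v ∈ e ∧ part v = i) ∧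
      (∀ e ∈ H, ∀ f ∈ H, ∃ v, v ∈ e ∧ v ∈ f) ∧
      ∀ C : Finset V, (∀ e ∈ H, ∃ v ∈ e, v ∈ C) → 21 * 5 ^ (c + 9) ≤ C.card := by
  have : Fact (Nat.Prime 5) := ⟨Nat.prime_five⟩
  let ee : ZMod 273 → ℕ := fun x => if x ∈ BB then c + 10 else c + 9
  let _ : ∀ x, Fintype (GaloisField 5 (ee x)) := fun x => Fintype.ofFinite _
  have hc : ∀ x, Fintype.card (GaloisField 5 (ee x)) = 5 ^ ee x := fun x => by
    rw [← Nat.card_eq_fintype_card, GaloisField.card]
    simp only [ee]; split_ifs <;> omega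
  refine geo0.blowup (fun x => GaloisField 5 (ee x)) (5 ^ (c + 9)) (5 ^ (c + 5)) (by positivity)
    ?_ ?_ ?_
  · intro x
    rw [hc, BB_inc]
    simp only [ee]
    split_ifs <;> ring
  · intro x
    rw [hc]
    have : 5 ^ (c + 9) ≤ 5 ^ ee x := Nat.pow_le_pow_right (by norm_num) (by
      simp only [ee]; split_ifs <;> omega)
    calc 273 * 5 ^ (c + 5) ≤ 625 * 5 ^ (c + 5) := Nat.mul_le_mul_right _ (by norm_num)
      _ = 5 ^ (c + 9) := by ring
      _ ≤ _ := this
  · intro x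
    rw [hc, ← pow_add]
    exact Nat.pow_le_pow_right (by norm_num) (by simp only [ee]; split_ifs <;> omega)

end Vale.Agent.P045
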