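import Vale.Agent.P045.Baer

set_option linter.unusedSectionVars false

namespace Vale.Agent.P045

open Finset

variable {P : Type} [Fintype P] [DecidableEq P] {inc : P → P → Prop} [DecidableRel inc]
  {B : Finset P}

theorem le_ex {C : Finset P} (hC : ∀ a, a ∉ B → 1 ≤ jj inc C a) {x L : P} (hL : L ∉ B)
    (hx : inc x L) : jj inc C L - 1 ≤ ex inc B C x :=
  single_le_sum (f := fun a => jj inc C a - 1) (s := Bᶜ.filter (inc x))
    (fun a ha => by
      have := hC a (mem_compl.1 (mem_filter.1 ha).1)
      linarith) (by simp [hL, hx])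

theorem ex_nonneg {C : Finset P} (hC : ∀ a, a ∉ B → 1 ≤ jj inc C a) (x : P) :
    0 ≤ ex inc B C x :=
  sum_nonneg fun a ha => by
    have := hC a (mem_compl.1 (mem_filter.1 ha).1)
    linarith

namespace Geo

variable (G : Geo P inc B)
include G

theorem offB_card (a : P) :
    ((univ.filter (fun x => inc x a)).filter (· ∉ B)).card + (B.filter (inc a)).card = 17 := by
  rw [← G.split_card a]
  congr 2
  ext x
  simp only [mem_filter, mem_univ, true_and, mem_compl]
  exact ⟨fun h => ⟨h.2, G.symm _ _ h.1⟩, fun h => ⟨G.symm _ _ h.2, h.1⟩⟩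

theorem exists_free {C : Finset P} (hC : ∀ a, a ∉ B → 1 ≤ jj inc C a)
    (hI : (C.card : ℤ) + 4 * ((C ∩ B).card : ℤ) ≤ 20) (a : P) :
    ∃ x, inc x a ∧ x ∉ B ∧ x ∉ C := by
  by_contra h
  push Not at h
  have h1 : ((univ.filter (fun x => inc x a)).filter (· ∉ B)).card ≤
      (C.filter (fun x => inc x a)).card := by
    apply card_le_card
    intro x hx
    simp only [mem_filter, mem_univ, true_and] at hx ⊢
    exact ⟨h x hx.1 hx.2, hx.1⟩
  have h2 := G.offB_card a
  have h3 : ((C ∩ B).card : ℤ) ≥ 0 := by positivity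
  by_cases hall : ∀ p ∈ B, inc p a → p ∈ C
  · have h4 : (univ.filter (fun x => inc x a)).card ≤ C.card := by
      apply card_le_card
      intro x hx
      simp only [mem_filter, mem_univ, true_and] at hx
      by_cases hb : x ∈ B
      · exact hall x hb hx
      · exact h x hx hb
    rw [G.pts_card] at h4
    have h5 : (B.filter (fun x => inc x a)).card ≤ (C ∩ B).card := by
      apply card_le_card
      intro x hx
      simp only [mem_filter, mem_inter] at hx ⊢
      exact ⟨hall x hx.1 hx.2, hx.1⟩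
    rw [G.ptsB_eq] at h5
    have h6 : 1 ≤ (B.filter (inc a)).card := by
      by_cases ha : a ∈ B
      · rw [G.B5 a ha]; norm_num
      · rw [G.B1 a ha]
    omega
  · push Not at hall
    obtain ⟨p, hp, hpa, hpC⟩ := hall
    have e := G.ex_B C hp hpC
    have hj := jj_eq_card (inc := inc) C a
    by_cases ha : a ∈ B
    · rw [G.B5 a ha] at h2
      have k1 : jj inc C a ≤ ∑ b ∈ B.filter (inc p), jj inc C b :=
        single_le_sum (f := jj inc C) (fun b _ => jj_nonneg C b) (by simp [ha, hpa])
      have k2 := ex_nonneg hC p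
      omega
    · rw [G.B1 a ha] at h2
      have k1 : 0 ≤ ∑ b ∈ B.filter (inc p), jj inc C b := sum_nonneg fun b _ => jj_nonneg C b
      have k2 := le_ex hC ha hpa
      omega

theorem tangent_le {C : Finset P} (hC : ∀ a, a ∉ B → 1 ≤ jj inc C a)
    (hI : (C.card : ℤ) + 4 * ((C ∩ B).card : ℤ) ≤ 20) {a : P} (ha : a ∉ B) :
    jj inc C a ≤ C.card - 15 := by
  obtain ⟨x, h1, h2, h3⟩ := G.exists_free hC hI a
  obtain ⟨S, hS, hxS⟩ := G.exists_B h2
  have e := G.ex_notB C h2 hS hxS
  rw [if_neg h3] at e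
  have k1 := le_ex hC ha h1
  have k2 := jj_nonneg (inc := inc) C S
  omega

theorem baer_le {C : Finset P} (hC : ∀ a, a ∉ B → 1 ≤ jj inc C a)
    (hI : (C.card : ℤ) + 4 * ((C ∩ B).card : ℤ) ≤ 20) {a : P} (ha : a ∈ B) :
    jj inc C a ≤ C.card - 16 := by
  obtain ⟨x, h1, h2, h3⟩ := G.exists_free hC hI a
  have e := G.ex_notB C h2 ha h1
  rw [if_neg h3] at e
  have k1 := ex_nonneg hC x
  omega

theorem card_eq {C : Finset P} (hC : ∀ a, a ∉ B → 1 ≤ jj inc C a)
    (hI : (C.card : ℤ) + 4 * ((C ∩ B).card : ℤ) ≤ 20) : (C.card : ℤ) = 20 := by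
  by_contra hne
  have h3 : ((C ∩ B).card : ℤ) ≥ 0 := by positivity
  have hn : (C.card : ℤ) ≤ 19 := by omega
  have h1 : ∑ a, (jj inc C a - 1) * (jj inc C a - 4) ≤ ∑ a, if a ∈ B then (4 : ℤ) else 0 := by
    refine sum_le_sum fun a _ => ?_
    have k0 := jj_nonneg (inc := inc) C a
    split_ifs with ha
    · have := G.baer_le hC hI ha
      nlinarith
    · have := G.tangent_le hC hI ha
      have := hC a ha
      nlinarith
  have h2 : ∑ a, (jj inc C a - 1) * (jj inc C a - 4) =
      ∑ a, jj inc C a * jj inc C a - 5 * ∑ a, jj inc C a + 4 * 273 := by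
    rw [mul_sum, ← sum_sub_distrib]
    have : (4 * 273 : ℤ) = ∑ _a : P, 4 := by simp [G.cardP]
    rw [this, ← sum_add_distrib]
    exact sum_congr rfl fun a _ => by ring
  rw [h2, G.sum_sq, G.sum_all] at h1
  simp [G.cardB] at h1
  nlinarith

theorem not_mid {C : Finset P} (hC : ∀ a, a ∉ B → 1 ≤ jj inc C a)
    (hI : (C.card : ℤ) + 4 * ((C ∩ B).card : ℤ) ≤ 20) {S : P} (hS : S ∈ B) :
    jj inc C S = 0 ∨ jj inc C S = 4 := by
  have hn := G.card_eq hC hI
  have hβ : (C ∩ B).card = 0 := by omega
  have hCB : ∀ x ∈ B, x ∉ C := fun x hx hxC => by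
    have : x ∈ C ∩ B := mem_inter.2 ⟨hxC, hx⟩
    rw [card_eq_zero.1 hβ] at this
    simp at this
  have hB := G.sum_B C
  rw [hβ, hn] at hB
  set f : P → ℤ := fun a => jj inc C a * (jj inc C a - 1) with hf
  have l1 : ∑ a ∈ B, f a ≤ ∑ a ∈ B, 3 * jj inc C a := sum_le_sum fun a ha => by
    have := G.baer_le hC hI ha
    have := jj_nonneg (inc := inc) C a
    simp only [hf]
    nlinarith
  rw [← mul_sum, hB] at l1
  have l2 : ∑ a, f a = 380 := by
    simp only [hf, mul_sub, mul_one, sum_sub_distrib, G.sum_sq, G.sum_all, hn]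
    norm_num
  have l3 := sum_add_sum_compl B f
  have l4 := G.along S Bᶜ (by simp [hS]) f
  set k := jj inc C S with hk
  have b5 : ∀ x, ∑ a ∈ Bᶜ.filter (inc x), f a ≤ 5 * ex inc B C x := fun x => by
    rw [ex, mul_sum]
    refine sum_le_sum fun a ha => ?_
    have ha' := mem_compl.1 (mem_filter.1 ha).1
    have := G.tangent_le hC hI ha'
    have := hC a ha'
    simp only [hf]
    nlinarith
  have bE : ∀ x, ∑ a ∈ Bᶜ.filter (inc x), f a ≤ (ex inc B C x + 1) * ex inc B C x := fun x => by
    conv_rhs => rw [ex, mul_sum]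
    refine sum_le_sum fun a ha => ?_
    have ha' := mem_compl.1 (mem_filter.1 ha).1
    have := le_ex hC ha' (mem_filter.1 ha).2
    have := hC a ha'
    simp only [hf]
    change _ ≤ (ex inc B C x + 1) * _
    nlinarith
  rw [← sum_filter_add_sum_filter_not (univ.filter (fun x => inc x S)) (· ∈ B)] at l4
  have e1 : (univ.filter (fun x => inc x S)).filter (· ∈ B) = B.filter (fun p => inc p S) := by
    ext x; simp [and_comm]
  have u1 : ∑ x ∈ (univ.filter (fun x => inc x S)).filter (· ∈ B), ∑ a ∈ Bᶜ.filter (inc x), f a ≤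
      5 * (20 - 4 * k) := by
    rw [e1]
    refine le_trans (sum_le_sum fun x _ => b5 x) ?_
    rw [← mul_sum, sum_congr rfl fun x hx =>
      G.ex_B C (mem_filter.1 hx).1 (hCB x (mem_filter.1 hx).1), sum_sub_distrib, sum_sub_distrib,
      G.sum_Bpencils C hS, hB, hn]
    simp only [sum_const, G.ptsB_eq, G.B5 S hS]
    simp only [nsmul_eq_mul, Nat.cast_ofNat, Nat.cast_zero]
    linarith
  have u2 : ∑ x ∈ (univ.filter (fun x => inc x S)).filter (· ∉ B), ∑ a ∈ Bᶜ.filter (inc x), f a ≤
      12 * ((5 - k) * (4 - k)) + k * (5 * (20 - k) - (5 - k) * (4 - k)) := by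
    have : ∀ x ∈ (univ.filter (fun x => inc x S)).filter (· ∉ B),
        ∑ a ∈ Bᶜ.filter (inc x), f a ≤ (5 - k) * (4 - k) +
          (if x ∈ C then 1 else 0) * (5 * (20 - k) - (5 - k) * (4 - k)) := by
      intro x hx
      simp only [mem_filter, mem_univ, true_and] at hx
      have e := G.ex_notB C hx.2 hS hx.1
      rw [hn, ← hk] at e
      by_cases h : x ∈ C
      · have := b5 x
        simp only [h, if_true] at e ⊢
        rw [e] at this
        linarith
      · have := bE x
        simp only [h, if_false] at e ⊢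
        rw [e] at this
        linarith
    refine le_trans (sum_le_sum this) ?_
    have c12 := G.offB_card S
    rw [G.B5 S hS] at c12
    have c12' : ((univ.filter (fun x => inc x S)).filter (· ∉ B)).card = 12 := by omega
    have ck : ∑ x ∈ (univ.filter (fun x => inc x S)).filter (· ∉ B),
        (if x ∈ C then (1 : ℤ) else 0) = k := by
      rw [hk, jj_eq_card, sum_boole]
      congr 2
      ext x
      simp only [mem_filter, mem_univ, true_and]
      exact ⟨fun h => ⟨h.2, h.1.1⟩, fun h => ⟨⟨h.2, fun hb => hCB x hb h.1⟩, h.1⟩⟩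
    rw [sum_add_distrib, sum_const, ← sum_mul, ck, c12']
    simp
  have k0 : 0 ≤ k := jj_nonneg C S
  have k4 : k ≤ 4 := by have := G.baer_le hC hI hS; omega
  have fin : 320 ≤ 5 * (20 - 4 * k) +
      (12 * ((5 - k) * (4 - k)) + k * (5 * (20 - k) - (5 - k) * (4 - k))) := by
    simp only [Nat.cast_zero, mul_zero, add_zero] at l1
    linarith
  have : k = 0 ∨ k = 1 ∨ k = 2 ∨ k = 3 ∨ k = 4 := by omega
  rcases this with h | h | h | h | h
  · exact Or.inl h
  · rw [h] at fin; norm_num at fin
  · rw [h] at fin; norm_num at fin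
  · rw [h] at fin; norm_num at fin
  · exact Or.inr h

theorem weighted_cover {C : Finset P} (hC : ∀ a, a ∉ B → 1 ≤ jj inc C a) :
    21 ≤ ∑ a ∈ B, jj inc C a := by
  by_contra hlt
  have hI : (C.card : ℤ) + 4 * ((C ∩ B).card : ℤ) ≤ 20 := by rw [← G.sum_B]; omega
  have hn := G.card_eq hC hI
  have hβ : (C ∩ B).card = 0 := by omega
  have hCB : ∀ x ∈ B, x ∉ C := fun x hx hxC => by
    have : x ∈ C ∩ B := mem_inter.2 ⟨hxC, hx⟩
    rw [card_eq_zero.1 hβ] at this
    simp at this
  have hB := G.sum_B C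
  rw [hβ, hn] at hB
  simp only [Nat.cast_zero, mul_zero, add_zero] at hB
  obtain ⟨S, hS, hS4⟩ : ∃ S ∈ B, jj inc C S = 4 := by
    by_contra h
    push Not at h
    rw [sum_eq_zero fun a ha => (G.not_mid hC hI ha).resolve_right (h a ha)] at hB
    norm_num at hB
  have h36 := G.sum_Bpencils C hS
  rw [hB, hS4] at h36
  obtain ⟨p, hp, hp7⟩ : ∃ p ∈ B.filter (fun p => inc p S),
      ∑ a ∈ B.filter (inc p), jj inc C a < 8 := by
    by_contra h
    push Not at h
    have := card_nsmul_le_sum _ _ _ h
    rw [G.ptsB_eq, G.B5 S hS, ← G.ptsB_eq, h36] at this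
    norm_num at this
  obtain ⟨hpB, hpS⟩ := mem_filter.1 hp
  have d4 : (4 : ℤ) ∣ ∑ a ∈ B.filter (inc p), jj inc C a := dvd_sum fun a ha => by
    rcases G.not_mid hC hI (mem_filter.1 ha).1 with h | h <;> simp [h]
  have g4 : jj inc C S ≤ ∑ a ∈ B.filter (inc p), jj inc C a :=
    single_le_sum (f := jj inc C) (fun b _ => jj_nonneg C b) (by simp [hS, hpS])
  have e4 : ∑ a ∈ B.filter (inc p), jj inc C a = 4 := by omega
  have eE := G.ex_B C hpB (hCB p hpB)
  rw [e4, hn] at eE
  have d3 : (3 : ℤ) ∣ ex inc B C p := dvd_sum fun L hL => by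
    have hLB := mem_compl.1 (mem_filter.1 hL).1
    have hpL := (mem_filter.1 hL).2
    by_cases h1 : jj inc C L = 1
    · simp [h1]
    have h2 : 2 ≤ jj inc C L := by have := hC L hLB; omega
    have key : ∀ a ∈ B, 4 * jj inc (C.filter (fun x => inc x L)) a =
        jj inc C a - if inc p a then jj inc C a else 0 := by
      intro a ha
      have hne : L ≠ a := fun h => hLB (h ▸ ha)
      obtain ⟨x, hx1, hx2⟩ := G.exists_meet hne
      have hval : jj inc (C.filter (fun x => inc x L)) a = if x ∈ C then 1 else 0 := by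
        rw [jj, sum_filter, ← sum_ite_eq' C x (fun _ => (1 : ℤ))]
        refine sum_congr rfl fun y _ => ?_
        by_cases hyx : y = x
        · simp [hyx, hx1, hx2]
        · by_cases k1 : inc y L
          · by_cases k2 : inc y a
            · exact absurd (G.meet_unique hne k1 k2 hx1 hx2) hyx
            · simp [k2, hyx]
          · simp [k1, hyx]
      rw [hval]
      by_cases hpa : inc p a
      · have : x = p := G.meet_unique hne hx1 hx2 hpL hpa
        simp [hpa, this, hCB p hpB]
      · have hxB : x ∉ B := fun hx => by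
          have : x = p := card_le_one.1 (G.B1 L hLB).le x (by simp [hx, G.symm _ _ hx1]) p
            (by simp [hpB, G.symm _ _ hpL])
          exact hpa (this ▸ hx2)
        simp only [hpa, if_false, sub_zero]
        rcases G.not_mid hC hI ha with h | h
        · have hxC : x ∉ C := fun hxC => by
            rw [jj_eq_card] at h
            have : (C.filter (fun x => inc x a)).card = 0 := by exact_mod_cast h
            have h' : x ∈ C.filter (fun x => inc x a) := by simp [hxC, hx2]
            rw [card_eq_zero.1 this] at h'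
            simp at h'
          simp [hxC, h]
        · have hxC : x ∈ C := by
            by_contra hxC
            have e := G.ex_notB C hxB ha hx2
            rw [if_neg hxC, hn, h] at e
            have := le_ex hC hLB hx1
            omega
          simp [hxC, h]
    have s1 := sum_congr rfl key
    rw [← mul_sum, sum_sub_distrib, ← sum_filter, e4, hB, G.sum_B, ← jj_eq_card] at s1
    have s2 : (C.filter (fun x => inc x L) ∩ B).card = 0 := by
      rw [card_eq_zero, eq_empty_iff_forall_notMem]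
      intro x hx
      exact hCB x (mem_inter.1 hx).2 (mem_filter.1 (mem_inter.1 hx).1).1
    rw [s2] at s1
    have : jj inc C L = 4 := by omega
    simp [this]
  omega

end Geo

end Vale.Agent.P045
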