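import Vale.Agent.P045.Cover
import Mathlib.Data.ZMod.Basic

namespace Vale.Agent.P045

open Finset

/-- a Singer difference set modulo 273 -/
def DD : Finset (ZMod 273) :=
  {39, 59, 78, 83, 89, 91, 118, 125, 156, 166, 178, 181, 182, 199, 227, 236, 250}

def BB : Finset (ZMod 273) :=
  {0, 13, 26, 39, 52, 65, 78, 91, 104, 117, 130, 143, 156, 169, 182, 195, 208, 221, 234, 247, 260}

def inc0 (x a : ZMod 273) : Prop := x + a ∈ DD

instance : DecidableRel inc0 := fun x a => inferInstanceAs (Decidable (x + a ∈ DD))

theorem DD_card : DD.card = 17 := by decide +kernel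

theorem BB_card : BB.card = 21 := by decide +kernel

theorem DD_diff : ∀ d : ZMod 273, d ≠ 0 → (DD.filter (fun u => u + d ∈ DD)).card = 1 := by
  decide +kernel

theorem BB_inc : ∀ x : ZMod 273, (BB.filter (inc0 x)).card = if x ∈ BB then 5 else 1 := by
  decide +kernel

theorem geo0 : Geo (ZMod 273) inc0 BB where
  cardP := ZMod.card 273
  cardB := BB_card
  symm x a h := by unfold inc0 at *; rwa [add_comm]
  deg x := by
    rw [← DD_card]
    refine card_bij (fun a _ => x + a) ?_ ?_ ?_
    · intro a ha; exact (mem_filter.1 ha).2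
    · intro a _ b _ h; exact add_left_cancel h
    · intro u hu; exact ⟨u - x, by simp [inc0, hu], by simp⟩
  two x y hxy := by
    rw [← DD_diff (y - x) (sub_ne_zero.2 hxy.symm)]
    refine card_bij (fun a _ => x + a) ?_ ?_ ?_
    · intro a ha
      have := (mem_filter.1 ha).2
      refine mem_filter.2 ⟨this.1, ?_⟩
      have e : x + a + (y - x) = y + a := by ring
      rw [e]; exact this.2
    · intro a _ b _ h; exact add_left_cancel h
    · intro u hu
      have := mem_filter.1 hu
      refine ⟨u - x, mem_filter.2 ⟨mem_univ _, by simp [inc0, this.1], ?_⟩, by simp⟩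
      have e : y + (u - x) = u + (y - x) := by ring
      rw [inc0, e]; exact this.2
  B5 x hx := by rw [BB_inc, if_pos hx]
  B1 x hx := by rw [BB_inc, if_neg hx]

end Vale.Agent.P045
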